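import Vale.Agent.Lib.P157.Approx
import Vale.Agent.Lib.P157.ModelsLemmas

/-!
# P157: `L¹(γ)`-Lipschitz continuity of the mean pressure and reduction to smooth potentials

For both configuration spaces (Ising cube, sphere of radius `√N`), every `α > 0` and every `N`,
the mean pressure `𝔼 p_N(f)` is Lipschitz in the log-potential `f` for the `L¹` norm of the
standard Gaussian measure, on every sup-norm ball, with a constant independent of `N`.
Consequently the limit of `𝔼 p_N(f)` exists for all bounded Borel `f` as soon as it exists for all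
smooth compactly supported `f`.
-/

namespace Vale.Agent.Results.P157.LipschitzBothModels

open Vale.Agent.P157 MeasureTheory ProbabilityTheory Filter Topology
open scoped ContDiff

theorem result (α : ℝ) (hα : 0 < α) (μ : (N : ℕ) → Measure (E N))
    (hμ : μ = cubeMeasure ∨ μ = sphereMeasure) :
    (∀ (N : ℕ) (B : ℝ) (f h : ℝ → ℝ), Measurable f → Measurable h →
      (∀ t, |f t| ≤ B) → (∀ t, |h t| ≤ B) →
      |meanPressure α N (μ N) f - meanPressure α N (μ N) h|
        ≤ ((⌊α * N⌋₊ : ℝ) / N) * Real.exp (2 * B) *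
          ∫ t, |f t - h t| ∂(gaussianReal 0 1)) ∧
    ((∀ ψ : ℝ → ℝ, ContDiff ℝ ∞ ψ → HasCompactSupport ψ →
        ∃ ℓ : ℝ, Tendsto (fun N => meanPressure α N (μ N) ψ) atTop (𝓝 ℓ)) →
      ∀ f : ℝ → ℝ, Measurable f → (∃ B : ℝ, ∀ t, |f t| ≤ B) →
        ∃ ℓ : ℝ, Tendsto (fun N => meanPressure α N (μ N) f) atTop (𝓝 ℓ)) := by
  have hμ' : ∀ N, 0 < N → IsProbabilityMeasure (μ N) ∧ ∀ᵐ x ∂(μ N), ‖x‖ ^ 2 = N := by
    rcases hμ with rfl | rfl
    · exact fun N _ => ⟨cubeMeasure_prob N, cubeMeasure_ae N⟩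
    · exact fun N hN => ⟨sphereMeasure_prob N hN, sphereMeasure_ae N⟩
  refine ⟨?_, fun hyp f hf hfb => limit_exists_of_smooth α hα.le μ hμ' hyp f hf hfb⟩
  intro N B f h hf hh hfB hhB
  rcases Nat.eq_zero_or_pos N with rfl | hN
  · simp [meanPressure, pressure]
  · obtain ⟨hp, hae⟩ := hμ' N hN
    exact meanPressure_lipschitz α N (μ N) hae f h hf hh B hfB hhB

end Vale.Agent.Results.P157.LipschitzBothModels
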