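import Vale.Agent.Lib.P157.Approx

/-!
# P157: the `L¹(γ)`-Lipschitz bound for an arbitrary configuration measure on the sphere

The same statement as for the cube and the sphere holds for every family of probability measures
`μ_N` on `ℝ^N` carried by `{‖x‖² = N}`.
-/

namespace Vale.Agent.Results.P157.LipschitzGeneral

open Vale.Agent.P157 MeasureTheory ProbabilityTheory Filter Topology
open scoped ContDiff

theorem result (α : ℝ) (hα : 0 < α) (μ : (N : ℕ) → Measure (E N))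
    (hprob : ∀ N, IsProbabilityMeasure (μ N)) (hsph : ∀ N : ℕ, ∀ᵐ x ∂(μ N), ‖x‖ ^ 2 = (N : ℝ)) :
    (∀ (N : ℕ) (B : ℝ) (f h : ℝ → ℝ), Measurable f → Measurable h →
      (∀ t, |f t| ≤ B) → (∀ t, |h t| ≤ B) →
      |meanPressure α N (μ N) f - meanPressure α N (μ N) h|
        ≤ ((⌊α * N⌋₊ : ℝ) / N) * Real.exp (2 * B) *
          ∫ t, |f t - h t| ∂(gaussianReal 0 1)) ∧
    ((∀ ψ : ℝ → ℝ, ContDiff ℝ ∞ ψ → HasCompactSupport ψ →
        ∃ ℓ : ℝ, Tendsto (fun N => meanPressure α N (μ N) ψ) atTop (𝓝 ℓ)) →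
      ∀ f : ℝ → ℝ, Measurable f → (∃ B : ℝ, ∀ t, |f t| ≤ B) →
        ∃ ℓ : ℝ, Tendsto (fun N => meanPressure α N (μ N) f) atTop (𝓝 ℓ)) := by
  refine ⟨fun N B f h hf hh hfB hhB => ?_, fun hyp f hf hfb =>
    limit_exists_of_smooth α hα.le μ (fun N _ => ⟨hprob N, hsph N⟩) hyp f hf hfb⟩
  have := hprob N
  exact meanPressure_lipschitz α N (μ N) (hsph N) f h hf hh B hfB hhB

end Vale.Agent.Results.P157.LipschitzGeneral
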